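import Vale.Agent.Lib.P065.KSets

open Vale.Agent.Lib.P065 in
/-- Upper bounds for the number of `k`-sets and of halving lines of a planar point set in general
position, in terms of its convex layers (onion peeling). -/
theorem Vale.Agent.Results.P065.ConvexLayers.result (P : Finset (ℝ × ℝ))
    (hgp : GeneralPosition P) (c : ℕ) (hc : (peel^[c]) P = ∅) :
    (∀ k, 1 ≤ k → k < P.card →
      (kSets P k).card + 2 * ∑ j ∈ Finset.Ico 1 c, ((peel^[j]) P).card + P.card
        ≤ 2 * c * P.card) ∧
    (2 * (halvingLines P).card + 2 * ∑ j ∈ Finset.Ico 1 c, ((peel^[j]) P).card + P.card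
        ≤ 2 * c * P.card) :=
  layers_main P hgp c hc
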