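import Vale.Agent.Lib.P065.AreaMain

open Vale.Agent.Lib.P065 in
/-- Upper bounds for the number of `k`-sets and of halving lines of a set of points of an integer
grid with no three collinear. -/
theorem Vale.Agent.Results.P065.LatticeKSets.result (P : Finset (ℝ × ℝ)) (N : ℕ) (hN : 0 < N)
    (hint : ∀ p ∈ P, ∃ x y : ℤ, p = ((x : ℝ), (y : ℝ)) ∧ 0 ≤ x ∧ x ≤ N ∧ 0 ≤ y ∧ y ≤ N)
    (hgp : GeneralPosition P) :
    (∀ k, 1 ≤ k → k < P.card →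
      (((kSets P k).card : ℝ) - 4) ^ 3 ≤ 512 * (k : ℝ) ^ 2 * (N : ℝ) ^ 2) ∧
    (((halvingLines P).card : ℝ) - 2) ^ 3 ≤ 16 * (P.card : ℝ) ^ 2 * (N : ℝ) ^ 2 :=
  lattice_main P N hN hint hgp
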