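import Vale.Agent.Lib.P065.AreaMain

open Vale.Agent.Lib.P065 in
/-- Upper bounds for the number of `k`-sets and of halving lines of a general-position set in the
unit square, in terms of the number of its small triangles. -/
theorem Vale.Agent.Results.P065.SmallTriangles.result (P : Finset (ℝ × ℝ))
    (hgp : GeneralPosition P)
    (hsq : ∀ p ∈ P, 0 ≤ p.1 ∧ p.1 ≤ 1 ∧ 0 ≤ p.2 ∧ p.2 ≤ 1) (Δ : ℝ) (hΔ : 0 < Δ) :
    (∀ k, 1 ≤ k → k < P.card →
      (((kSets P k).card : ℝ) - 4 * ((smallTriples P Δ).card : ℝ) - 4) ^ 3 * Δ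
        ≤ 256 * (k : ℝ) ^ 2) ∧
    (((halvingLines P).card : ℝ) - 2 * ((smallTriples P Δ).card : ℝ) - 2) ^ 3 * Δ
        ≤ 8 * (P.card : ℝ) ^ 2 :=
  square_main_bad P hgp hsq Δ hΔ
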