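import Vale.Agent.Results.P065.AreaKSets
import Vale.Agent.Results.P065.ConvexLayers
import Vale.Agent.Results.P065.LatticeKSets
import Vale.Agent.Results.P065.SmallTriangles

open Vale.Agent.Lib.P065 in
/-- Upper bounds for the number of `k`-sets and of halving lines of planar point sets: in terms of
small triangles in the unit square; for sets with no small triangle; for sets in an integer grid;
and in terms of the convex layers (onion peeling). -/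
theorem Vale.Agent.Results.P065.A0Conj.result :
    (∀ (P : Finset (ℝ × ℝ)), GeneralPosition P →
      (∀ p ∈ P, 0 ≤ p.1 ∧ p.1 ≤ 1 ∧ 0 ≤ p.2 ∧ p.2 ≤ 1) → ∀ Δ : ℝ, 0 < Δ →
      (∀ k, 1 ≤ k → k < P.card →
        (((kSets P k).card : ℝ) - 4 * ((smallTriples P Δ).card : ℝ) - 4) ^ 3 * Δ
          ≤ 256 * (k : ℝ) ^ 2) ∧
      (((halvingLines P).card : ℝ) - 2 * ((smallTriples P Δ).card : ℝ) - 2) ^ 3 * Δ
          ≤ 8 * (P.card : ℝ) ^ 2) ∧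
    (∀ (P : Finset (ℝ × ℝ)), (∀ p ∈ P, 0 ≤ p.1 ∧ p.1 ≤ 1 ∧ 0 ≤ p.2 ∧ p.2 ≤ 1) → ∀ Δ : ℝ, 0 < Δ →
      (∀ a ∈ P, ∀ b ∈ P, ∀ c ∈ P, a ≠ b → a ≠ c → b ≠ c → Δ ≤ triangleArea a b c) →
      (∀ k, 1 ≤ k → k < P.card →
        (((kSets P k).card : ℝ) - 4) ^ 3 * Δ ≤ 256 * (k : ℝ) ^ 2) ∧
      (((halvingLines P).card : ℝ) - 2) ^ 3 * Δ ≤ 8 * (P.card : ℝ) ^ 2) ∧
    (∀ (P : Finset (ℝ × ℝ)) (N : ℕ), 0 < N →
      (∀ p ∈ P, ∃ x y : ℤ, p = ((x : ℝ), (y : ℝ)) ∧ 0 ≤ x ∧ x ≤ N ∧ 0 ≤ y ∧ y ≤ N) →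
      GeneralPosition P →
      (∀ k, 1 ≤ k → k < P.card →
        (((kSets P k).card : ℝ) - 4) ^ 3 ≤ 512 * (k : ℝ) ^ 2 * (N : ℝ) ^ 2) ∧
      (((halvingLines P).card : ℝ) - 2) ^ 3 ≤ 16 * (P.card : ℝ) ^ 2 * (N : ℝ) ^ 2) ∧
    (∀ (P : Finset (ℝ × ℝ)), GeneralPosition P → ∀ c : ℕ, (peel^[c]) P = ∅ →
      (∀ k, 1 ≤ k → k < P.card →
        (kSets P k).card + 2 * ∑ j ∈ Finset.Ico 1 c, ((peel^[j]) P).card + P.card
          ≤ 2 * c * P.card) ∧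
      (2 * (halvingLines P).card + 2 * ∑ j ∈ Finset.Ico 1 c, ((peel^[j]) P).card + P.card
          ≤ 2 * c * P.card)) :=
  ⟨fun P hgp hsq Δ hΔ => Vale.Agent.Results.P065.SmallTriangles.result P hgp hsq Δ hΔ,
   fun P hsq Δ hΔ harea => Vale.Agent.Results.P065.AreaKSets.result P hsq Δ hΔ harea,
   fun P N hN hint hgp => Vale.Agent.Results.P065.LatticeKSets.result P N hN hint hgp,
   fun P hgp c hc => Vale.Agent.Results.P065.ConvexLayers.result P hgp c hc⟩
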